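import Mathlib

/-!
# P150: heat-bath dynamics of the Sherrington-Kirkpatrick model, definitions
Configurations are `x : Fin n → Bool`, the spin at `i` is `sp (x i) = ±1`.
-/

namespace Vale.Agent.P150

open Finset

/-- the spin value `±1` -/
def sp (b : Bool) : ℝ := if b then 1 else -1

/-- the configuration `x` with the spin at `i` flipped -/
def flipAt {n : ℕ} (i : Fin n) (x : Fin n → Bool) : Fin n → Bool := Function.update x i (!x i)

/-- Boltzmann weight `exp (β n^(-1/2) ∑_{i<j} g i j x_i x_j)` -/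
noncomputable def wt {n : ℕ} (β : ℝ) (g : Fin n → Fin n → ℝ) (x : Fin n → Bool) : ℝ :=
  Real.exp (β / Real.sqrt n * ∑ i, ∑ j, if i < j then g i j * sp (x i) * sp (x j) else 0)

/-- the Gibbs measure -/
noncomputable def mu {n : ℕ} (β : ℝ) (g : Fin n → Fin n → ℝ) (x : Fin n → Bool) : ℝ :=
  wt β g x / ∑ y, wt β g y

/-- expectation under the Gibbs measure -/
noncomputable def Ex {n : ℕ} (β : ℝ) (g : Fin n → Fin n → ℝ) (f : (Fin n → Bool) → ℝ) : ℝ :=
  ∑ x, mu β g x * f x

/-- variance under the Gibbs measure -/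
noncomputable def Vr {n : ℕ} (β : ℝ) (g : Fin n → Fin n → ℝ) (f : (Fin n → Bool) → ℝ) : ℝ :=
  Ex β g (fun x => f x ^ 2) - Ex β g f ^ 2

/-- `Q_i f` : conditional expectation of `f` given the spins other than `i` -/
noncomputable def Qc {n : ℕ} (β : ℝ) (g : Fin n → Fin n → ℝ) (i : Fin n)
    (f : (Fin n → Bool) → ℝ) (x : Fin n → Bool) : ℝ :=
  (wt β g x * f x + wt β g (flipAt i x) * f (flipAt i x)) / (wt β g x + wt β g (flipAt i x))

/-- the generator `L = ∑_i (Q_i - I)` -/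
noncomputable def gen {n : ℕ} (β : ℝ) (g : Fin n → Fin n → ℝ) (f : (Fin n → Bool) → ℝ)
    (x : Fin n → Bool) : ℝ :=
  ∑ i, (Qc β g i f x - f x)

/-- the Dirichlet form `⟨f, -L f⟩` in `L^2(μ)` -/
noncomputable def dir {n : ℕ} (β : ℝ) (g : Fin n → Fin n → ℝ) (f : (Fin n → Bool) → ℝ) : ℝ :=
  Ex β g (fun x => f x * (-gen β g f x))

/-- the spectral gap of `-L` on `L^2(μ)` (variational formula) -/
noncomputable def gap {n : ℕ} (β : ℝ) (g : Fin n → Fin n → ℝ) : ℝ :=
  sInf ((fun f => dir β g f / Vr β g f) '' {f | 0 < Vr β g f})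

/-- the second moment `⟨R_{12}^2⟩` of the overlap of two independent replicas -/
noncomputable def overlap2 {n : ℕ} (β : ℝ) (g : Fin n → Fin n → ℝ) : ℝ :=
  ∑ x, ∑ y, mu β g x * mu β g y * ((∑ i, sp (x i) * sp (y i)) / n) ^ 2

end Vale.Agent.P150
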