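import Vale.Agent.P150.Defs

/-!
# P150: the spectral gap is at most `1 / (n ⟨R_{12}^2⟩)`
-/

namespace Vale.Agent.P150

open Finset

variable {n : ℕ} (β : ℝ) (g : Fin n → Fin n → ℝ)

theorem sp_sq (b : Bool) : sp b * sp b = 1 := by
  cases b <;> simp [sp]

theorem sp_not (b : Bool) : sp (!b) = - sp b := by
  cases b <;> simp [sp]

theorem wt_pos (x : Fin n → Bool) : 0 < wt β g x := Real.exp_pos _

theorem Z_pos : 0 < ∑ y : Fin n → Bool, wt β g y :=
  Finset.sum_pos (fun y _ => wt_pos β g y) ⟨fun _ => true, Finset.mem_univ _⟩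

theorem mu_pos (x : Fin n → Bool) : 0 < mu β g x := div_pos (wt_pos β g x) (Z_pos β g)

theorem mu_sum : ∑ x, mu β g x = 1 := by
  unfold mu
  rw [← Finset.sum_div]
  exact div_self (Z_pos β g).ne'

theorem flipAt_flipAt (i : Fin n) (x : Fin n → Bool) : flipAt i (flipAt i x) = x := by
  funext j
  unfold flipAt
  by_cases h : j = i
  · subst h; simp
  · simp [Function.update_of_ne h]

theorem sum_flip (i : Fin n) (F : (Fin n → Bool) → ℝ) : ∑ x, F (flipAt i x) = ∑ x, F x :=
  Equiv.sum_comp (Function.Involutive.toPerm (flipAt i) (flipAt_flipAt i)) F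

/-- the symmetric conductance of the pair `x`, `flipAt i x` -/
noncomputable def cond (i : Fin n) (x : Fin n → Bool) : ℝ :=
  wt β g x * wt β g (flipAt i x) / ((wt β g x + wt β g (flipAt i x)) * ∑ y, wt β g y)

theorem cond_flip (i : Fin n) (x : Fin n → Bool) : cond β g i (flipAt i x) = cond β g i x := by
  unfold cond
  rw [flipAt_flipAt, mul_comm (wt β g (flipAt i x)), add_comm (wt β g (flipAt i x))]

theorem cond_nonneg (i : Fin n) (x : Fin n → Bool) : 0 ≤ cond β g i x := by
  unfold cond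
  have h1 := wt_pos β g x
  have h2 := wt_pos β g (flipAt i x)
  have h3 := Z_pos β g
  exact div_nonneg (mul_nonneg h1.le h2.le) (mul_nonneg (add_pos h1 h2).le h3.le)

theorem cond_aux (a b Z : ℝ) (ha : 0 < a) (hb : 0 < b) (hZ : 0 < Z) :
    a * b / ((a + b) * Z) ≤ (a / Z + b / Z) / 4 := by
  rw [← add_div, div_div, div_le_div_iff₀ (by positivity) (by positivity)]
  nlinarith [mul_nonneg hZ.le (sq_nonneg (a - b))]

theorem term_aux (a b Z u v : ℝ) (ha : 0 < a) (hb : 0 < b) (hZ : 0 < Z) :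
    a / Z * (u * (u - (a * u + b * v) / (a + b))) = a * b / ((a + b) * Z) * (u * (u - v)) := by
  have hab : a + b ≠ 0 := (add_pos ha hb).ne'
  field_simp
  ring

theorem cond_le (i : Fin n) (x : Fin n → Bool) :
    cond β g i x ≤ (mu β g x + mu β g (flipAt i x)) / 4 := by
  unfold cond mu
  exact cond_aux _ _ _ (wt_pos β g x) (wt_pos β g (flipAt i x)) (Z_pos β g)

theorem sum_cond_le (i : Fin n) : ∑ x, cond β g i x ≤ 1 / 2 := by
  calc ∑ x, cond β g i x ≤ ∑ x, (mu β g x + mu β g (flipAt i x)) / 4 :=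
        Finset.sum_le_sum (fun x _ => cond_le β g i x)
    _ = 1 / 2 := by
        rw [← Finset.sum_div, Finset.sum_add_distrib, sum_flip i (mu β g), mu_sum]
        norm_num

theorem term_eq (i : Fin n) (f : (Fin n → Bool) → ℝ) (x : Fin n → Bool) :
    mu β g x * (f x * (f x - Qc β g i f x)) = cond β g i x * (f x * (f x - f (flipAt i x))) := by
  unfold mu Qc cond
  exact term_aux _ _ _ _ _ (wt_pos β g x) (wt_pos β g (flipAt i x)) (Z_pos β g)

theorem form_eq (i : Fin n) (f : (Fin n → Bool) → ℝ) :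
    ∑ x, mu β g x * (f x * (f x - Qc β g i f x))
      = (1 / 2) * ∑ x, cond β g i x * (f x - f (flipAt i x)) ^ 2 := by
  have e1 : ∑ x, mu β g x * (f x * (f x - Qc β g i f x))
      = ∑ x, cond β g i x * (f x * (f x - f (flipAt i x))) :=
    Finset.sum_congr rfl (fun x _ => term_eq β g i f x)
  have e2 : ∑ x, cond β g i x * (f x * (f x - f (flipAt i x)))
      = ∑ x, cond β g i x * (f (flipAt i x) * (f (flipAt i x) - f x)) := by
    rw [← sum_flip i (fun x => cond β g i x * (f x * (f x - f (flipAt i x))))]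
    apply Finset.sum_congr rfl
    intro x _
    rw [cond_flip, flipAt_flipAt]
  have e3 : ∑ x, cond β g i x * (f x - f (flipAt i x)) ^ 2
      = ∑ x, cond β g i x * (f x * (f x - f (flipAt i x)))
        + ∑ x, cond β g i x * (f (flipAt i x) * (f (flipAt i x) - f x)) := by
    rw [← Finset.sum_add_distrib]
    apply Finset.sum_congr rfl
    intro x _
    ring
  rw [e1, e3, ← e2]
  ring

theorem dir_eq (f : (Fin n → Bool) → ℝ) :
    dir β g f = ∑ i, (1 / 2) * ∑ x, cond β g i x * (f x - f (flipAt i x)) ^ 2 := by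
  unfold dir Ex gen
  have h : ∀ x, mu β g x * (f x * -∑ i, (Qc β g i f x - f x))
      = ∑ i, mu β g x * (f x * (f x - Qc β g i f x)) := by
    intro x
    rw [← Finset.sum_neg_distrib, Finset.mul_sum, Finset.mul_sum]
    apply Finset.sum_congr rfl
    intro i _
    ring
  rw [Finset.sum_congr rfl (fun x _ => h x), Finset.sum_comm]
  exact Finset.sum_congr rfl (fun i _ => form_eq β g i f)

theorem dir_nonneg (f : (Fin n → Bool) → ℝ) : 0 ≤ dir β g f := by
  rw [dir_eq]
  apply Finset.sum_nonneg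
  intro i _
  apply mul_nonneg (by norm_num)
  apply Finset.sum_nonneg
  intro x _
  exact mul_nonneg (cond_nonneg β g i x) (sq_nonneg _)

/-- the linear test function attached to a second configuration `y` -/
noncomputable def lin (y x : Fin n → Bool) : ℝ := ∑ i, sp (x i) * sp (y i)

theorem lin_flip (y : Fin n → Bool) (i : Fin n) (x : Fin n → Bool) :
    lin y x - lin y (flipAt i x) = 2 * (sp (x i) * sp (y i)) := by
  unfold lin
  rw [← Finset.sum_sub_distrib, Finset.sum_eq_single i]
  · unfold flipAt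
    rw [Function.update_self, sp_not]
    ring
  · intro j _ hj
    unfold flipAt
    rw [Function.update_of_ne hj]
    ring
  · intro h
    exact absurd (Finset.mem_univ i) h

theorem lin_flip_sq (y : Fin n → Bool) (i : Fin n) (x : Fin n → Bool) :
    (lin y x - lin y (flipAt i x)) ^ 2 = 4 := by
  rw [lin_flip]
  have h1 := sp_sq (x i)
  have h2 := sp_sq (y i)
  calc (2 * (sp (x i) * sp (y i))) ^ 2 = 4 * ((sp (x i) * sp (x i)) * (sp (y i) * sp (y i))) := by
        ring
    _ = 4 := by rw [h1, h2]; norm_num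

theorem dir_lin_le (y : Fin n → Bool) : dir β g (lin y) ≤ n := by
  rw [dir_eq]
  calc ∑ i : Fin n, (1 / 2) * ∑ x, cond β g i x * (lin y x - lin y (flipAt i x)) ^ 2
      ≤ ∑ _i : Fin n, (1 : ℝ) := by
        apply Finset.sum_le_sum
        intro i _
        have h : ∑ x, cond β g i x * (lin y x - lin y (flipAt i x)) ^ 2
            = 4 * ∑ x, cond β g i x := by
          rw [Finset.mul_sum]
          apply Finset.sum_congr rfl
          intro x _
          rw [lin_flip_sq]
          ring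
        rw [h]
        have := sum_cond_le β g i
        linarith
    _ = n := by simp

/-- the global spin flip -/
def neg (x : Fin n → Bool) : Fin n → Bool := fun i => !x i

theorem neg_neg' (x : Fin n → Bool) : neg (neg x) = x := by
  funext i
  simp [neg]

theorem sum_neg' (F : (Fin n → Bool) → ℝ) : ∑ x, F (neg x) = ∑ x, F x :=
  Equiv.sum_comp (Function.Involutive.toPerm neg neg_neg') F

theorem wt_neg (x : Fin n → Bool) : wt β g (neg x) = wt β g x := by
  unfold wt neg
  congr 2
  apply Finset.sum_congr rfl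
  intro i _
  apply Finset.sum_congr rfl
  intro j _
  rw [sp_not, sp_not]
  split_ifs
  · ring
  · rfl

theorem mu_neg (x : Fin n → Bool) : mu β g (neg x) = mu β g x := by
  unfold mu
  rw [wt_neg]

theorem lin_neg (y x : Fin n → Bool) : lin y (neg x) = - lin y x := by
  unfold lin neg
  rw [← Finset.sum_neg_distrib]
  apply Finset.sum_congr rfl
  intro i _
  rw [sp_not]
  ring

theorem Ex_lin (y : Fin n → Bool) : Ex β g (lin y) = 0 := by
  unfold Ex
  have h := sum_neg' (fun x => mu β g x * lin y x)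
  have h2 : ∑ x, mu β g (neg x) * lin y (neg x) = - ∑ x, mu β g x * lin y x := by
    rw [← Finset.sum_neg_distrib]
    apply Finset.sum_congr rfl
    intro x _
    rw [mu_neg, lin_neg]
    ring
  have h3 : ∑ x, mu β g (neg x) * lin y (neg x) = ∑ x, mu β g x * lin y x := h
  linarith

theorem Vr_lin (y : Fin n → Bool) : Vr β g (lin y) = ∑ x, mu β g x * lin y x ^ 2 := by
  unfold Vr
  rw [Ex_lin]
  unfold Ex
  ring

theorem avg_Vr (hn : 0 < n) :
    ∑ y, mu β g y * Vr β g (lin y) = (n : ℝ) ^ 2 * overlap2 β g := by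
  have hn' : (n : ℝ) ≠ 0 := by exact_mod_cast hn.ne'
  unfold overlap2
  rw [Finset.sum_comm, Finset.mul_sum]
  apply Finset.sum_congr rfl
  intro y _
  rw [Vr_lin, Finset.mul_sum, Finset.mul_sum]
  apply Finset.sum_congr rfl
  intro x _
  unfold lin
  field_simp

theorem overlap2_pos (hn : 0 < n) : 0 < overlap2 β g := by
  have hn' : (n : ℝ) ≠ 0 := by exact_mod_cast hn.ne'
  unfold overlap2
  have hnn : ∀ x y : Fin n → Bool,
      0 ≤ mu β g x * mu β g y * ((∑ i, sp (x i) * sp (y i)) / n) ^ 2 := fun x y =>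
    mul_nonneg (mul_nonneg (mu_pos β g x).le (mu_pos β g y).le) (sq_nonneg _)
  let x0 : Fin n → Bool := fun _ => true
  have h1 : 0 < mu β g x0 * mu β g x0 * ((∑ i, sp (x0 i) * sp (x0 i)) / n) ^ 2 := by
    have : (∑ i : Fin n, sp (x0 i) * sp (x0 i)) / n = 1 := by
      simp only [sp_sq]
      simp [hn']
    rw [this]
    have := mu_pos β g x0
    positivity
  calc 0 < mu β g x0 * mu β g x0 * ((∑ i, sp (x0 i) * sp (x0 i)) / n) ^ 2 := h1
    _ ≤ ∑ y, mu β g x0 * mu β g y * ((∑ i, sp (x0 i) * sp (y i)) / n) ^ 2 :=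
        Finset.single_le_sum (f := fun y => mu β g x0 * mu β g y *
          ((∑ i, sp (x0 i) * sp (y i)) / n) ^ 2) (fun y _ => hnn x0 y) (Finset.mem_univ x0)
    _ ≤ ∑ x, ∑ y, mu β g x * mu β g y * ((∑ i, sp (x i) * sp (y i)) / n) ^ 2 :=
        Finset.single_le_sum (f := fun x => ∑ y, mu β g x * mu β g y *
          ((∑ i, sp (x i) * sp (y i)) / n) ^ 2)
          (fun x _ => Finset.sum_nonneg (fun y _ => hnn x y)) (Finset.mem_univ x0)

theorem exists_good (hn : 0 < n) :
    ∃ y : Fin n → Bool, (n : ℝ) ^ 2 * overlap2 β g ≤ Vr β g (lin y) := by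
  by_contra hcon
  simp only [not_exists, not_le] at hcon
  have h1 : ∑ y, mu β g y * Vr β g (lin y) < ∑ y, mu β g y * ((n : ℝ) ^ 2 * overlap2 β g) := by
    apply Finset.sum_lt_sum_of_nonempty ⟨fun _ => true, Finset.mem_univ _⟩
    intro y _
    exact mul_lt_mul_of_pos_left (hcon y) (mu_pos β g y)
  rw [avg_Vr β g hn, ← Finset.sum_mul, mu_sum, one_mul] at h1
  exact lt_irrefl _ h1

theorem gap_bddBelow :
    BddBelow ((fun f => dir β g f / Vr β g f) '' {f | 0 < Vr β g f}) := by
  refine ⟨0, ?_⟩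
  rintro _ ⟨f, hf, rfl⟩
  exact div_nonneg (dir_nonneg β g f) (le_of_lt hf)

theorem gap_le_ratio (f : (Fin n → Bool) → ℝ) (hf : 0 < Vr β g f) :
    gap β g ≤ dir β g f / Vr β g f :=
  csInf_le (gap_bddBelow β g) ⟨f, hf, rfl⟩

theorem gap_nonneg (hn : 0 < n) : 0 ≤ gap β g := by
  obtain ⟨y, hy⟩ := exists_good β g hn
  have hpos : 0 < Vr β g (lin y) :=
    lt_of_lt_of_le (mul_pos (by positivity) (overlap2_pos β g hn)) hy
  apply le_csInf (Set.Nonempty.image _ ⟨lin y, hpos⟩)
  rintro _ ⟨f, hf, rfl⟩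
  exact div_nonneg (dir_nonneg β g f) (le_of_lt hf)

theorem gap_le (hn : 0 < n) : gap β g ≤ 1 / (n * overlap2 β g) := by
  obtain ⟨y, hy⟩ := exists_good β g hn
  have hov := overlap2_pos β g hn
  have hn' : (0 : ℝ) < n := by exact_mod_cast hn
  have hpos : 0 < Vr β g (lin y) := lt_of_lt_of_le (mul_pos (by positivity) hov) hy
  refine le_trans (gap_le_ratio β g (lin y) hpos) ?_
  rw [div_le_div_iff₀ hpos (by positivity)]
  have h1 := dir_lin_le β g y
  calc dir β g (lin y) * (n * overlap2 β g) ≤ n * (n * overlap2 β g) :=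
        mul_le_mul_of_nonneg_right h1 (by positivity)
    _ = (n : ℝ) ^ 2 * overlap2 β g := by ring
    _ ≤ 1 * Vr β g (lin y) := by rw [one_mul]; exact hy

theorem poincare (hn : 0 < n) (f : (Fin n → Bool) → ℝ) :
    gap β g * Vr β g f ≤ dir β g f := by
  by_cases hf : 0 < Vr β g f
  · have h := gap_le_ratio β g f hf
    rwa [le_div_iff₀ hf] at h
  · have h1 : gap β g * Vr β g f ≤ 0 :=
      mul_nonpos_of_nonneg_of_nonpos (gap_nonneg β g hn) (not_lt.1 hf)
    exact le_trans h1 (dir_nonneg β g f)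

end Vale.Agent.P150
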